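import Vale.Agent.P245.Defs

open MeasureTheory

namespace Vale.Agent.P245.H48

/-- The image of a measure with a log-concave density under a linear isomorphism has a log-concave
density. -/
theorem map_lc {n : ℕ} (e : EuclideanSpace ℝ (Fin n) ≃L[ℝ] EuclideanSpace ℝ (Fin n))
    {μ : Measure (EuclideanSpace ℝ (Fin n))} (h : HasLogConcaveDensity μ) :
    HasLogConcaveDensity (μ.map e) := by
  obtain ⟨ρ, hm, h0, hc, rfl⟩ := h
  have hdet : LinearMap.det (e.toLinearEquiv : (EuclideanSpace ℝ (Fin n)) →ₗ[ℝ] (EuclideanSpace ℝ (Fin n))) ≠ 0 :=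
    (LinearEquiv.isUnit_det' e.toLinearEquiv).ne_zero
  set c : ℝ := |(LinearMap.det (e.toLinearEquiv : (EuclideanSpace ℝ (Fin n)) →ₗ[ℝ] (EuclideanSpace ℝ (Fin n))))⁻¹| with hcdef
  have hcpos : 0 < c := by
    rw [hcdef]
    exact abs_pos.mpr (inv_ne_zero hdet)
  have hvol : (volume : Measure (EuclideanSpace ℝ (Fin n))).map e = ENNReal.ofReal c • (volume : Measure (EuclideanSpace ℝ (Fin n))) := by
    have := Measure.map_linearMap_addHaar_eq_smul_addHaar (volume : Measure (EuclideanSpace ℝ (Fin n))) hdet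
    exact this
  have hem : Measurable (e : (EuclideanSpace ℝ (Fin n)) → (EuclideanSpace ℝ (Fin n))) := e.continuous.measurable
  have hsm : Measurable (e.symm : (EuclideanSpace ℝ (Fin n)) → (EuclideanSpace ℝ (Fin n))) := e.symm.continuous.measurable
  refine ⟨fun y => c * ρ (e.symm y), (hm.comp hsm).const_mul c,
    fun y => mul_nonneg hcpos.le (h0 _), ?_, ?_⟩
  · have hset : {y : (EuclideanSpace ℝ (Fin n)) | 0 < c * ρ (e.symm y)} =
        (e.symm.toLinearEquiv : (EuclideanSpace ℝ (Fin n)) →ₗ[ℝ] (EuclideanSpace ℝ (Fin n))) ⁻¹' {x | 0 < ρ x} := by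
      ext y
      simp only [Set.mem_ofPred_eq, Set.mem_preimage]
      exact ⟨fun h => (pos_iff_pos_of_mul_pos h).mp hcpos, fun h => mul_pos hcpos h⟩
    rw [hset]
    have h1 := (hc.comp_linearMap (e.symm.toLinearEquiv : (EuclideanSpace ℝ (Fin n)) →ₗ[ℝ] (EuclideanSpace ℝ (Fin n)))).add_const (Real.log c)
    refine h1.congr ?_
    intro y hy
    have hy' : 0 < ρ (e.symm y) := hy
    change Real.log (ρ (e.symm y)) + Real.log c = Real.log (c * ρ (e.symm y))
    rw [Real.log_mul hcpos.ne' hy'.ne']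
    ring
  · have hcm : Measurable (fun y => ρ (e.symm y)) := hm.comp hsm
    ext A hA
    rw [Measure.map_apply hem hA, withDensity_apply _ (hem hA), withDensity_apply _ hA]
    have h1 : ∀ y : (EuclideanSpace ℝ (Fin n)), ENNReal.ofReal (c * ρ (e.symm y)) =
        ENNReal.ofReal c * ENNReal.ofReal (ρ (e.symm y)) :=
      fun y => ENNReal.ofReal_mul hcpos.le
    simp_rw [h1]
    rw [lintegral_const_mul _ hcm.ennreal_ofReal]
    have h2 : ∫⁻ y in A, ENNReal.ofReal (ρ (e.symm y)) ∂((volume : Measure (EuclideanSpace ℝ (Fin n))).map e) =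
        ∫⁻ x in (e : (EuclideanSpace ℝ (Fin n)) → (EuclideanSpace ℝ (Fin n))) ⁻¹' A, ENNReal.ofReal (ρ x) ∂(volume : Measure (EuclideanSpace ℝ (Fin n))) := by
      rw [setLIntegral_map hA hcm.ennreal_ofReal hem]
      simp
    rw [← h2, hvol, Measure.restrict_smul, lintegral_smul_measure, smul_eq_mul]

end Vale.Agent.P245.H48
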