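import Mathlib
import Vale.Agent.P245.Defs
import Vale.Agent.P245.H767.Gibbs

/-!
# Weighted Gibbs bound (row WB of helper48)
-/

open MeasureTheory Real
open scoped ENNReal

namespace Vale.Agent.P245.H48

variable {n : ℕ}

/-- `∏ exp (t_i z_i) ≤ ∑_S (∏_{i ∈ S} t_i) (∏_{i ∉ S} (1 - t_i)) exp (∑_{i ∈ S} z_i)` -/
theorem exp_cube (t z : Fin n → ℝ) (ht0 : ∀ i, 0 ≤ t i) (ht1 : ∀ i, t i ≤ 1) :
    exp (∑ i, t i * z i) ≤ ∑ S ∈ (Finset.univ : Finset (Fin n)).powerset,
      ((∏ i ∈ S, t i) * ∏ i ∈ Finset.univ \ S, (1 - t i)) * exp (∑ i ∈ S, z i) := by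
  have h1 : ∀ i, exp (t i * z i) ≤ t i * exp (z i) + (1 - t i) := by
    intro i
    have hcx := convexOn_exp.2 (Set.mem_univ (z i)) (Set.mem_univ (0 : ℝ)) (ht0 i)
      (sub_nonneg.2 (ht1 i)) (by ring)
    simpa using hcx
  calc exp (∑ i, t i * z i) = ∏ i, exp (t i * z i) := exp_sum _ _
    _ ≤ ∏ i, (t i * exp (z i) + (1 - t i)) :=
        Finset.prod_le_prod (fun i _ => (exp_pos _).le) (fun i _ => h1 i)
    _ = ∑ S ∈ (Finset.univ : Finset (Fin n)).powerset,
        (∏ i ∈ S, (t i * exp (z i))) * ∏ i ∈ Finset.univ \ S, (1 - t i) := Finset.prod_add _ _ _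
    _ = _ := by
        apply Finset.sum_congr rfl
        intro S _
        rw [Finset.prod_mul_distrib, ← exp_sum]
        ring

/-- **Row WB.** Weighted Gibbs bound with weights in `[0, 1]`. -/
theorem wb {μ : Measure (EuclideanSpace ℝ (Fin n))} [IsProbabilityMeasure μ]
    {a : ℝ} (ha : 0 < a) (hsub : LinearlySubgaussian μ a)
    {v : Fin n → EuclideanSpace ℝ (Fin n)} (hv : Orthonormal ℝ v) (t : Fin n → ℝ)
    (ht0 : ∀ i, 0 ≤ t i) (ht1 : ∀ i, t i ≤ 1) :
    ∫⁻ x, ENNReal.ofReal (exp ((∑ i, t i * inner ℝ (v i) x ^ 2) / (2 * a ^ 2))) ∂μ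
      ≤ ENNReal.ofReal (exp (1 + ∑ i, t i)) := by
  classical
  set w : Finset (Fin n) → ℝ := fun S => (∏ i ∈ S, t i) * ∏ i ∈ Finset.univ \ S, (1 - t i)
    with hw
  have hw0 : ∀ S, 0 ≤ w S := fun S => mul_nonneg (Finset.prod_nonneg fun i _ => ht0 i)
    (Finset.prod_nonneg fun i _ => sub_nonneg.2 (ht1 i))
  have hpt : ∀ x : EuclideanSpace ℝ (Fin n),
      ENNReal.ofReal (exp ((∑ i, t i * inner ℝ (v i) x ^ 2) / (2 * a ^ 2)))
        ≤ ∑ S ∈ (Finset.univ : Finset (Fin n)).powerset, ENNReal.ofReal (w S) *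
          ENNReal.ofReal (exp ((∑ i ∈ S, inner ℝ (v i) x ^ 2) / (2 * a ^ 2))) := by
    intro x
    have h1 := exp_cube t (fun i => inner ℝ (v i) x ^ 2 / (2 * a ^ 2)) ht0 ht1
    have e1 : (∑ i, t i * inner ℝ (v i) x ^ 2) / (2 * a ^ 2)
        = ∑ i, t i * (inner ℝ (v i) x ^ 2 / (2 * a ^ 2)) := by
      rw [Finset.sum_div]
      exact Finset.sum_congr rfl fun i _ => by ring
    rw [e1]
    refine (ENNReal.ofReal_le_ofReal h1).trans ?_
    rw [ENNReal.ofReal_sum_of_nonneg (fun S _ => mul_nonneg (hw0 S) (exp_pos _).le)]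
    apply Finset.sum_le_sum
    intro S _
    rw [ENNReal.ofReal_mul (hw0 S), ← Finset.sum_div]
  calc ∫⁻ x, ENNReal.ofReal (exp ((∑ i, t i * inner ℝ (v i) x ^ 2) / (2 * a ^ 2))) ∂μ
      ≤ ∫⁻ x, ∑ S ∈ (Finset.univ : Finset (Fin n)).powerset, ENNReal.ofReal (w S) *
          ENNReal.ofReal (exp ((∑ i ∈ S, inner ℝ (v i) x ^ 2) / (2 * a ^ 2))) ∂μ :=
        lintegral_mono hpt
    _ = ∑ S ∈ (Finset.univ : Finset (Fin n)).powerset, ENNReal.ofReal (w S) *
          ∫⁻ x, ENNReal.ofReal (exp ((∑ i ∈ S, inner ℝ (v i) x ^ 2) / (2 * a ^ 2))) ∂μ := by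
        rw [lintegral_finsetSum _ (fun S _ => by fun_prop)]
        apply Finset.sum_congr rfl
        intro S _
        rw [lintegral_const_mul _ (by fun_prop)]
    _ ≤ ∑ S ∈ (Finset.univ : Finset (Fin n)).powerset, ENNReal.ofReal (w S) *
          ENNReal.ofReal (2 * √2 ^ S.card) := by
        apply Finset.sum_le_sum
        intro S _
        gcongr
        exact H767.gibbs ha hsub hv S
    _ = ENNReal.ofReal (∑ S ∈ (Finset.univ : Finset (Fin n)).powerset,
          w S * (2 * √2 ^ S.card)) := by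
        rw [ENNReal.ofReal_sum_of_nonneg (fun S _ => mul_nonneg (hw0 S) (by positivity))]
        apply Finset.sum_congr rfl
        intro S _
        rw [ENNReal.ofReal_mul (hw0 S)]
    _ = ENNReal.ofReal (2 * ∏ i, (t i * √2 + (1 - t i))) := by
        congr 1
        rw [Finset.prod_add, Finset.mul_sum]
        apply Finset.sum_congr rfl
        intro S _
        rw [Finset.prod_mul_distrib, Finset.prod_const, hw]
        ring
    _ ≤ ENNReal.ofReal (exp (1 + ∑ i, t i)) := by
        apply ENNReal.ofReal_le_ofReal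
        have h2 : √2 ≤ 2 := by
          rw [Real.sqrt_le_left (by norm_num)]; norm_num
        have h3 : ∏ i, (t i * √2 + (1 - t i)) ≤ ∏ i, exp (t i) := by
          apply Finset.prod_le_prod
          · intro i _
            have := ht0 i
            have := ht1 i
            have := mul_nonneg (ht0 i) (Real.sqrt_nonneg 2)
            linarith
          · intro i _
            have h4 := add_one_le_exp (t i)
            have h5 := mul_le_mul_of_nonneg_left h2 (ht0 i)
            linarith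
        have h6 : (2 : ℝ) ≤ exp 1 := by
          have := add_one_le_exp (1 : ℝ)
          linarith
        rw [← exp_sum] at h3
        rw [exp_add]
        have h7 : 0 ≤ ∏ i, (t i * √2 + (1 - t i)) := by
          apply Finset.prod_nonneg
          intro i _
          have := ht0 i
          have := ht1 i
          have := mul_nonneg (ht0 i) (Real.sqrt_nonneg 2)
          linarith
        exact mul_le_mul h6 h3 h7 (exp_pos _).le

end Vale.Agent.P245.H48
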