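import Vale.Agent.P245.Defs

open MeasureTheory Filter Topology
open scoped ContDiff

namespace Vale.Agent.P245.H48

theorem inner_grad {n : ℕ} (v : EuclideanSpace ℝ (Fin n)) (g : EuclideanSpace ℝ (Fin n) → ℝ)
    (x : EuclideanSpace ℝ (Fin n)) : inner ℝ v (gradient g x) = fderiv ℝ g x v := by
  rw [real_inner_comm, gradient, InnerProductSpace.toDual_symm_apply]

theorem tendsto_dom {n : ℕ} {μ : Measure (EuclideanSpace ℝ (Fin n))} [IsProbabilityMeasure μ]
    (F : ℕ → EuclideanSpace ℝ (Fin n) → ℝ) (G : EuclideanSpace ℝ (Fin n) → ℝ)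
    (hF : ∀ m, Continuous (F m)) (M : ℝ) (hM : ∀ m x, |F m x| ≤ M)
    (hlim : ∀ x, ∀ᶠ m in atTop, F m x = G x) :
    Tendsto (fun m => ∫ x, F m x ∂μ) atTop (𝓝 (∫ x, G x ∂μ)) := by
  refine tendsto_integral_of_dominated_convergence (fun _ => M)
    (fun m => (hF m).aestronglyMeasurable) (integrable_const M) ?_ ?_
  · intro m
    exact Eventually.of_forall (fun x => by rw [Real.norm_eq_abs]; exact hM m x)
  · refine Eventually.of_forall (fun x => ?_)
    exact tendsto_const_nhds.congr' ((hlim x).mono fun m hm => hm.symm)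

theorem lim_shift {n : ℕ} {μ : Measure (EuclideanSpace ℝ (Fin n))} [IsProbabilityMeasure μ]
    (b : OrthonormalBasis (Fin n) ℝ (EuclideanSpace ℝ (Fin n))) (α : Fin n → ℝ)
    (hα : ∀ i, 0 ≤ α i) (β : ℝ) (hβ : 0 ≤ β)
    (hA : ∀ f : EuclideanSpace ℝ (Fin n) → ℝ, ContDiff ℝ ∞ f → HasCompactSupport f →
      Entropy μ (fun x => f x ^ 2) ≤
        ∑ i, α i * ∫ x, (inner ℝ (b i) (gradient f x)) ^ 2 ∂μ + β * ∫ x, f x ^ 2 ∂μ)
    (c : ℝ) (f : EuclideanSpace ℝ (Fin n) → ℝ) (hf : ContDiff ℝ ∞ f) (hfc : HasCompactSupport f) :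
    Entropy μ (fun x => (f x - c) ^ 2) ≤
      ∑ i, α i * ∫ x, (inner ℝ (b i) (gradient f x)) ^ 2 ∂μ + β * ∫ x, (f x - c) ^ 2 ∂μ := by
  classical
  -- the cutoff
  let B : ContDiffBump (0 : EuclideanSpace ℝ (Fin n)) := ⟨1, 2, by norm_num, by norm_num⟩
  have hBs : ContDiff ℝ ∞ (B : EuclideanSpace ℝ (Fin n) → ℝ) := B.contDiff
  have hBc : HasCompactSupport (B : EuclideanSpace ℝ (Fin n) → ℝ) := B.hasCompactSupport
  let r : ℕ → ℝ := fun m => ((m : ℝ) + 1)⁻¹
  have hr0 : ∀ m, 0 < r m := fun m => by positivity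
  have hr1 : ∀ m, r m ≤ 1 := fun m => by
    apply inv_le_one_of_one_le₀
    have : (0 : ℝ) ≤ (m : ℝ) := Nat.cast_nonneg m
    linarith
  let χ : ℕ → EuclideanSpace ℝ (Fin n) → ℝ := fun m x => B (r m • x)
  have hχs : ∀ m, ContDiff ℝ ∞ (χ m) := fun m => hBs.comp (contDiff_const_smul (r m))
  have hχ0 : ∀ m x, 0 ≤ χ m x := fun m x => B.nonneg
  have hχ1 : ∀ m x, χ m x ≤ 1 := fun m x => B.le_one
  have hχc : ∀ m, HasCompactSupport (χ m) := fun m => by
    have := hBc.comp_smul (hr0 m).ne'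
    exact this
  let u : ℕ → EuclideanSpace ℝ (Fin n) → ℝ := fun m x => f x - c * χ m x
  have hus : ∀ m, ContDiff ℝ ∞ (u m) := fun m => hf.sub (contDiff_const.mul (hχs m))
  have huc : ∀ m, HasCompactSupport (u m) := fun m => by
    have h1 : HasCompactSupport (fun x => c * χ m x) := (hχc m).mul_left
    exact hfc.sub h1
  -- bounds
  obtain ⟨M, hM⟩ := hf.continuous.bounded_above_of_compact_support hfc
  have hM0 : 0 ≤ M := le_trans (norm_nonneg _) (hM 0)
  have hub : ∀ m x, |u m x| ≤ M + |c| := fun m x => by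
    have h1 : |u m x| ≤ |f x| + |c * χ m x| := abs_sub _ _
    have h2 : |c * χ m x| ≤ |c| := by
      rw [abs_mul, abs_of_nonneg (hχ0 m x)]
      exact mul_le_of_le_one_right (abs_nonneg c) (hχ1 m x)
    have h3 : |f x| ≤ M := hM x
    linarith
  obtain ⟨Mf, hMf⟩ := (hf.continuous_fderiv (by simp)).bounded_above_of_compact_support
    (hfc.fderiv (𝕜 := ℝ))
  obtain ⟨MB, hMB⟩ := (hBs.continuous_fderiv (by simp)).bounded_above_of_compact_support
    (hBc.fderiv (𝕜 := ℝ))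
  have hMf0 : 0 ≤ Mf := le_trans (norm_nonneg _) (hMf 0)
  have hMB0 : 0 ≤ MB := le_trans (norm_nonneg _) (hMB 0)
  have hdχ : ∀ m x, fderiv ℝ (χ m) x = r m • fderiv ℝ B (r m • x) := fun m x => by
    have h1 : HasFDerivAt (B : EuclideanSpace ℝ (Fin n) → ℝ) (fderiv ℝ B (r m • x)) (r m • x) :=
      ((hBs.differentiable (by simp)) _).hasFDerivAt
    have h2 : HasFDerivAt (fun y : EuclideanSpace ℝ (Fin n) => r m • y)
        (r m • ContinuousLinearMap.id ℝ _) x := (hasFDerivAt_id x).const_smul (r m)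
    have h3 := h1.comp x h2
    have h4 := h3.fderiv
    have h5 : fderiv ℝ (χ m) x = (fderiv ℝ B (r m • x)).comp
        (r m • ContinuousLinearMap.id ℝ (EuclideanSpace ℝ (Fin n))) := h4
    rw [h5]
    ext v
    simp
  have hdu : ∀ m x, fderiv ℝ (u m) x = fderiv ℝ f x - c • fderiv ℝ (χ m) x := fun m x => by
    have h1 : HasFDerivAt f (fderiv ℝ f x) x := ((hf.differentiable (by simp)) x).hasFDerivAt
    have h2 : HasFDerivAt (χ m) (fderiv ℝ (χ m) x) x :=
      (((hχs m).differentiable (by simp)) x).hasFDerivAt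
    exact (h1.sub (h2.const_mul c)).fderiv
  have hdb : ∀ m x, ‖fderiv ℝ (u m) x‖ ≤ Mf + |c| * MB := fun m x => by
    rw [hdu, hdχ]
    refine (norm_sub_le _ _).trans (add_le_add (hMf x) ?_)
    rw [norm_smul, norm_smul, Real.norm_eq_abs, Real.norm_eq_abs, abs_of_pos (hr0 m)]
    refine mul_le_mul_of_nonneg_left ?_ (abs_nonneg c)
    calc r m * ‖fderiv ℝ B (r m • x)‖ ≤ 1 * MB :=
          mul_le_mul (hr1 m) (hMB _) (norm_nonneg _) zero_le_one
      _ = MB := one_mul _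
  -- pointwise, the cutoff is eventually one
  have hnear : ∀ x, ∀ᶠ m in atTop, u m =ᶠ[𝓝 x] fun y => f y - c := fun x => by
    have h1 : Tendsto (fun m => r m * (‖x‖ + 1)) atTop (𝓝 (0 * (‖x‖ + 1))) := by
      refine Tendsto.mul_const _ ?_
      have := tendsto_one_div_add_atTop_nhds_zero_nat (𝕜 := ℝ)
      refine this.congr (fun m => ?_)
      simp [r]
    rw [zero_mul] at h1
    filter_upwards [h1.eventually (gt_mem_nhds (show (0 : ℝ) < 1 by norm_num))] with m hm
    have h2 : ∀ᶠ y in 𝓝 x, ‖y‖ < ‖x‖ + 1 :=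
      (continuous_norm.tendsto x).eventually (gt_mem_nhds (by linarith))
    filter_upwards [h2] with y hy
    have h3 : χ m y = 1 := by
      refine B.one_of_mem_closedBall ?_
      rw [mem_closedBall_zero_iff, norm_smul, Real.norm_eq_abs, abs_of_pos (hr0 m)]
      have : r m * ‖y‖ ≤ r m * (‖x‖ + 1) := mul_le_mul_of_nonneg_left hy.le (hr0 m).le
      exact this.trans hm.le
    change f y - c * χ m y = f y - c
    rw [h3, mul_one]
  have hval : ∀ x, ∀ᶠ m in atTop, u m x = f x - c := fun x =>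
    (hnear x).mono fun m hm => hm.eq_of_nhds
  have hder : ∀ x, ∀ᶠ m in atTop, fderiv ℝ (u m) x = fderiv ℝ f x := fun x =>
    (hnear x).mono fun m hm => by
      rw [hm.fderiv_eq]
      exact fderiv_sub_const c
  -- the three limits
  have L1 : Tendsto (fun m => ∫ x, u m x ^ 2 ∂μ) atTop (𝓝 (∫ x, (f x - c) ^ 2 ∂μ)) := by
    refine tendsto_dom (fun m x => u m x ^ 2) (fun x => (f x - c) ^ 2)
      (fun m => (hus m).continuous.pow 2) ((M + |c|) ^ 2) (fun m x => ?_) (fun x => ?_)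
    · rw [abs_pow]
      exact pow_le_pow_left₀ (abs_nonneg _) (hub m x) 2
    · exact (hval x).mono fun m hm => by rw [hm]
  have hcont : Continuous (fun t : ℝ => t ^ 2 * Real.log (t ^ 2)) :=
    Real.continuous_mul_log.comp (continuous_pow 2)
  obtain ⟨Q, hQ⟩ := (isCompact_Icc (a := -(M + |c|)) (b := M + |c|)).exists_bound_of_continuousOn
    hcont.continuousOn
  have L2 : Tendsto (fun m => ∫ x, u m x ^ 2 * Real.log (u m x ^ 2) ∂μ) atTop
      (𝓝 (∫ x, (f x - c) ^ 2 * Real.log ((f x - c) ^ 2) ∂μ)) := by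
    refine tendsto_dom (fun m x => u m x ^ 2 * Real.log (u m x ^ 2))
      (fun x => (f x - c) ^ 2 * Real.log ((f x - c) ^ 2))
      (fun m => hcont.comp (hus m).continuous) Q (fun m x => ?_) (fun x => ?_)
    · exact hQ _ (abs_le.mp (hub m x))
    · exact (hval x).mono fun m hm => by rw [hm]
  have L3 : ∀ i, Tendsto (fun m => ∫ x, (inner ℝ (b i) (gradient (u m) x)) ^ 2 ∂μ) atTop
      (𝓝 (∫ x, (inner ℝ (b i) (gradient f x)) ^ 2 ∂μ)) := fun i => by
    simp_rw [inner_grad]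
    refine tendsto_dom (fun m x => (fderiv ℝ (u m) x (b i)) ^ 2)
      (fun x => (fderiv ℝ f x (b i)) ^ 2)
      (fun m => ((((hus m).continuous_fderiv (by simp)).clm_apply continuous_const).pow 2))
      ((Mf + |c| * MB) ^ 2) (fun m x => ?_) (fun x => ?_)
    · rw [abs_pow]
      refine pow_le_pow_left₀ (abs_nonneg _) ?_ 2
      have h1 := (fderiv ℝ (u m) x).le_opNorm (b i)
      rw [b.orthonormal.1 i, mul_one, Real.norm_eq_abs] at h1
      exact h1.trans (hdb m x)
    · exact (hder x).mono fun m hm => by rw [hm]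
  have L4 : Tendsto (fun m => Entropy μ (fun x => u m x ^ 2)) atTop
      (𝓝 (Entropy μ (fun x => (f x - c) ^ 2))) := by
    unfold Entropy
    exact L2.sub ((Real.continuous_mul_log.tendsto _).comp L1)
  have L5 : Tendsto (fun m => ∑ i, α i * ∫ x, (inner ℝ (b i) (gradient (u m) x)) ^ 2 ∂μ +
      β * ∫ x, u m x ^ 2 ∂μ) atTop
      (𝓝 (∑ i, α i * ∫ x, (inner ℝ (b i) (gradient f x)) ^ 2 ∂μ +
        β * ∫ x, (f x - c) ^ 2 ∂μ)) :=
    (tendsto_finsetSum _ fun i _ => (L3 i).const_mul (α i)).add (L1.const_mul β)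
  exact le_of_tendsto_of_tendsto' L4 L5 fun m => hA (u m) (hus m) (huc m)

end Vale.Agent.P245.H48
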