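import Mathlib

/-!
# Choice of the weights (row NUM of helper48)
-/

open Real

namespace Vale.Agent.P245.H48

/-- choice of the level `k` and of the weights `t` -/
theorem num {n : ℕ} (I : Fin n → ℝ) (h0 : ∀ i, 0 ≤ I i) (hI : 0 < ∑ i, I i) :
    ∃ (k : ℝ) (t : Fin n → ℝ), k = 1 + log ((∑ i, √(I i)) ^ 2 / ∑ i, I i) ∧ 1 ≤ k ∧
      (∀ i, 0 < t i ∧ t i ≤ 1) ∧ ∑ i, I i / t i ≤ 2 * ∑ i, I i ∧
      (1 + ∑ i, t i) * exp (-k) ≤ 2 := by
  classical
  set J : ℝ := ∑ i, I i with hJ
  set S : ℝ := ∑ i, √(I i) with hS
  have hn : 0 < n := by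
    rcases Nat.eq_zero_or_pos n with rfl | h
    · simp [hJ] at hI
    · exact h
  have hnR : (0 : ℝ) < n := by exact_mod_cast hn
  have hS0 : 0 ≤ S := Finset.sum_nonneg fun i _ => sqrt_nonneg _
  have hJS : J ≤ S ^ 2 := by
    rw [hJ, hS, sq, Finset.sum_mul]
    refine Finset.sum_le_sum fun i _ => ?_
    calc I i = √(I i) * √(I i) := (mul_self_sqrt (h0 i)).symm
      _ ≤ √(I i) * ∑ j, √(I j) := by
          refine mul_le_mul_of_nonneg_left ?_ (sqrt_nonneg _)
          exact Finset.single_le_sum (f := fun j => √(I j)) (fun j _ => sqrt_nonneg _)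
            (Finset.mem_univ i)
  have hS1 : 0 < S := by
    by_contra h
    have : S = 0 := le_antisymm (not_lt.1 h) hS0
    rw [this] at hJS
    norm_num at hJS
    linarith
  have hJ1 : 0 < √J := sqrt_pos.2 hI
  have hJle : √J ≤ S := by
    rw [← sqrt_sq hS0]
    exact sqrt_le_sqrt hJS
  set k : ℝ := 1 + log (S ^ 2 / J) with hk
  have hlog : 0 ≤ log (S ^ 2 / J) := log_nonneg ((one_le_div hI).2 hJS)
  have hk1 : 1 ≤ k := by linarith
  -- the scale `c = S / J`, essentially `e^{k/2} / sqrt J`
  set c : ℝ := S / J with hc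
  have hc0 : 0 < c := div_pos hS1 hI
  set t : Fin n → ℝ := fun i => min 1 (max (c * √(I i)) (1 / n)) with ht
  have hn1 : (1 : ℝ) / n ≤ 1 := by
    rw [div_le_one hnR]
    exact_mod_cast hn
  have ht0 : ∀ i, 0 < t i := fun i =>
    lt_min one_pos (lt_max_of_lt_right (by positivity))
  have ht1 : ∀ i, t i ≤ 1 := fun i => min_le_left _ _
  refine ⟨k, t, rfl, hk1, fun i => ⟨ht0 i, ht1 i⟩, ?_, ?_⟩
  · -- `I / t ≤ I + sqrt I / c`
    have h1 : ∀ i, I i / t i ≤ I i + √(I i) / c := by
      intro i
      rcases eq_or_lt_of_le (h0 i) with h | h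
      · rw [← h]
        simp
      · have hs : 0 < √(I i) := sqrt_pos.2 h
        rw [div_le_iff₀ (ht0 i)]
        rcases le_total 1 (max (c * √(I i)) (1 / n)) with h2 | h2
        · have : t i = 1 := min_eq_left h2
          rw [this]
          have : 0 ≤ √(I i) / c := by positivity
          linarith
        · have h3 : t i = max (c * √(I i)) (1 / n) := min_eq_right h2
          have h4 : c * √(I i) ≤ t i := by rw [h3]; exact le_max_left _ _
          have h5 : I i = √(I i) * √(I i) := (mul_self_sqrt (h0 i)).symm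
          calc I i = √(I i) / c * (c * √(I i)) := by
                field_simp
                nlinarith
            _ ≤ √(I i) / c * t i := mul_le_mul_of_nonneg_left h4 (by positivity)
            _ ≤ (I i + √(I i) / c) * t i := by
                have : 0 ≤ I i * t i := mul_nonneg (h0 i) (ht0 i).le
                nlinarith
    calc ∑ i, I i / t i ≤ ∑ i, (I i + √(I i) / c) := Finset.sum_le_sum fun i _ => h1 i
      _ = J + S / c := by rw [Finset.sum_add_distrib, ← Finset.sum_div]
      _ = 2 * J := by
          rw [hc]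
          field_simp
          ring
  · have h1 : ∑ i, t i ≤ c * S + 1 := by
      calc ∑ i, t i ≤ ∑ i, (c * √(I i) + 1 / n) := by
            refine Finset.sum_le_sum fun i _ => ?_
            refine (min_le_right _ _).trans (max_le ?_ ?_)
            · have : (0 : ℝ) < 1 / n := by positivity
              linarith
            · have : 0 ≤ c * √(I i) := by positivity
              linarith
        _ = c * S + 1 := by
            rw [Finset.sum_add_distrib, ← Finset.mul_sum, Finset.sum_const]
            simp only [Finset.card_univ, Fintype.card_fin, nsmul_eq_mul]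
            rw [mul_one_div_cancel hnR.ne']
    have h2 : exp (-k) = exp (-1) * (J / S ^ 2) := by
      rw [hk, neg_add, exp_add, exp_neg (log _), exp_log (by positivity), inv_div]
    have h3 : exp (-1) ≤ 1 / 2 := by
      rw [exp_neg, one_div]
      apply inv_anti₀ (by norm_num)
      linarith [add_one_le_exp (1 : ℝ)]
    have h4 : J / S ^ 2 ≤ 1 := (div_le_one (by positivity)).2 hJS
    have h5 : c * S * (J / S ^ 2) = 1 := by
      rw [hc]
      field_simp
    rw [h2]
    have h6 : (1 + ∑ i, t i) * (exp (-1) * (J / S ^ 2))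
        ≤ (2 + c * S) * (exp (-1) * (J / S ^ 2)) := by
      apply mul_le_mul_of_nonneg_right _ (by positivity)
      linarith
    have h7 : (2 + c * S) * (exp (-1) * (J / S ^ 2))
        = exp (-1) * (2 * (J / S ^ 2) + c * S * (J / S ^ 2)) := by ring
    rw [h7, h5] at h6
    have h8 : exp (-1) * (2 * (J / S ^ 2) + 1) ≤ 1 / 2 * (2 * 1 + 1) := by
      apply mul_le_mul h3 _ (by positivity) (by norm_num)
      linarith
    linarith

end Vale.Agent.P245.H48
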